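import Vale.Agent.P062.B18.Tree

namespace Vale.Agent.P062.B18

theorem ok0101 : t0101.all (check t) = true := by decide +kernel

end Vale.Agent.P062.B18
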