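import Vale.Agent.P062.B18.D0000
import Vale.Agent.P062.B18.D0001
import Vale.Agent.P062.B18.D0010
import Vale.Agent.P062.B18.D0011
import Vale.Agent.P062.B18.D0100
import Vale.Agent.P062.B18.D0101
import Vale.Agent.P062.B18.D0110
import Vale.Agent.P062.B18.D0111
import Vale.Agent.P062.B18.D1000
import Vale.Agent.P062.B18.D1001
import Vale.Agent.P062.B18.D1010
import Vale.Agent.P062.B18.D1011
import Vale.Agent.P062.B18.D1100
import Vale.Agent.P062.B18.D1101
import Vale.Agent.P062.B18.D1110
import Vale.Agent.P062.B18.D1111

namespace Vale.Agent.P062.B18

noncomputable def c000 : ℕ :=
  186405499692051025887625550616395595730953323948987580053261379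

noncomputable def t000 : Tr := Tr.node t0000 c000 t0001

noncomputable def c001 : ℕ :=
  1543345791820331970654535918841445339617250296654007359

noncomputable def t001 : Tr := Tr.node t0010 c001 t0011

noncomputable def c010 : ℕ :=
  2475880087650017399585834017

noncomputable def t010 : Tr := Tr.node t0100 c010 t0101

noncomputable def c011 : ℕ :=
  51763439865881859426089630480107492020860580554681348997800447510122564

noncomputable def t011 : Tr := Tr.node t0110 c011 t0111

noncomputable def c100 : ℕ :=
  1237940048364637124686775329

noncomputable def t100 : Tr := Tr.node t1000 c100 t1001

noncomputable def c101 : ℕ :=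
  2381976624223195654579566786366069279782

noncomputable def t101 : Tr := Tr.node t1010 c101 t1011

noncomputable def c110 : ℕ :=
  13293578210327158129789335773785360418

noncomputable def t110 : Tr := Tr.node t1100 c110 t1101

noncomputable def c111 : ℕ :=
  1188422437731835347224766776357

noncomputable def t111 : Tr := Tr.node t1110 c111 t1111

noncomputable def c00 : ℕ :=
  87116273615806403546109783379479269279778

noncomputable def t00 : Tr := Tr.node t000 c00 t001

noncomputable def c01 : ℕ :=
  316912650202325459955647513637

noncomputable def t01 : Tr := Tr.node t010 c01 t011

noncomputable def c10 : ℕ :=
  633825300259382810329823249445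

noncomputable def t10 : Tr := Tr.node t100 c10 t101

noncomputable def c11 : ℕ :=
  22302786892757501784321651098290237754050598

noncomputable def t11 : Tr := Tr.node t110 c11 t111

noncomputable def c0 : ℕ :=
  4642275149013529490964349985

noncomputable def t0 : Tr := Tr.node t00 c0 t01

noncomputable def c1 : ℕ :=
  4642275148437068738660992033

noncomputable def t1 : Tr := Tr.node t10 c1 t11

noncomputable def c : ℕ :=
  9928273257615441925843154375099773861400021619760785564139392969475336893282016736470081202243916853182298589274318222055790782377871762199977583491230707661642387203845334681607635260201495535360487775271077542237908628542990252882710173049274785032097574385326637667702325424883404209454882804325127982728153576570677312406889590840625473091677969636174473352402502511005171107784060465716244546234744717090261612572907021319699291254157875679600341207176628145800705841347971773513632571921597531995461143055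

noncomputable def t : Tr := Tr.node t0 c t1

end Vale.Agent.P062.B18
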